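import Vale.Agent.Lib.P328.Transfer

namespace Vale.Agent.Results.P328.ThreeRowReduction

open Finset
open Vale.Agent.Lib.P328

/-- The three-row inequality for tables with three rows and columns indexed by `κ`:
for all margins `r`, `c` and all `f` on the set `Om r c` of `3 x κ` contingency tables,
`Var f ≤ ∑_k E Var (f | row k)` for the uniform measure.  (`dd Ω R f x` is `f x` minus the average
of `f` over the tables of `Ω` that agree with `x` outside the rows of `R`; `{k}ᶜ` are the two rows
different from `k`, and `R = univ` gives `f` minus its mean.) -/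
def ThreeRowInequality (κ : Type) [Fintype κ] [DecidableEq κ] : Prop :=
  ∀ (r : Fin 3 → ℕ) (c : κ → ℕ) (f : Tab (Fin 3) κ → ℝ),
    ∑ x ∈ Om r c, dd (Om r c) univ f x ^ 2 ≤ ∑ k : Fin 3, ∑ x ∈ Om r c, dd (Om r c) {k}ᶜ f x ^ 2

theorem tri_of_threeRow {ι κ : Type} [Fintype ι] [DecidableEq ι] [Fintype κ] [DecidableEq κ]
    (h : ThreeRowInequality κ) (r : ι → ℕ) (c : κ → ℕ) (a b e : ι) (hab : a ≠ b) (hae : a ≠ e)
    (hbe : b ≠ e) : TriIneq r c a b e := by
  intro f
  set emb : Fin 3 → ι := ![a, b, e] with hemb
  have hinj : Function.Injective emb := by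
    intro p q hpq
    fin_cases p <;> fin_cases q <;> simp_all [hemb]
  have key := ineq_transfer hinj r c (univ.image fun k : Fin 3 => ({k}ᶜ : Finset (Fin 3))) f (by
    intro c' F
    have := h (fun k => r (emb k)) c' F
    rw [sum_image]
    · exact this
    · intro p _ q _ hpq
      exact singleton_injective (compl_injective hpq))
  rw [sum_image (by
    intro p _ q _ hpq
    exact singleton_injective (compl_injective hpq))] at key
  have i0 : (univ : Finset (Fin 3)).image emb = {a, b, e} := by
    ext i
    simp [hemb, Fin.exists_fin_succ, eq_comm]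
  have i1 : ({0}ᶜ : Finset (Fin 3)).image emb = {b, e} := by
    have : ({0}ᶜ : Finset (Fin 3)) = {1, 2} := by decide
    rw [this]
    simp [hemb]
  have i2 : ({1}ᶜ : Finset (Fin 3)).image emb = {a, e} := by
    have : ({1}ᶜ : Finset (Fin 3)) = {0, 2} := by decide
    rw [this]
    simp [hemb]
  have i3 : ({2}ᶜ : Finset (Fin 3)).image emb = {a, b} := by
    have : ({2}ᶜ : Finset (Fin 3)) = {0, 1} := by decide
    rw [this]
    simp [hemb]
  rw [Fin.sum_univ_three, i0, i1, i2, i3] at key
  linarith

/-- **Reduction of the general case to three rows.**  If the three-row inequality holds for tables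
with columns indexed by `κ`, then for every finite set `ι` of rows and all margins `r`, `c` the
uniform measure on the contingency tables `Om r c` satisfies the Poincare inequality
`Var f ≤ ∑_{a<b} E Var (f | all rows except a, b)` (the double sum below counts every pair twice and
the terms `a = b` vanish), that is: the chain that picks two rows and resamples them uniformly given
the other rows has spectral gap at least `1 / C(m,2)`, whatever the margins. -/
theorem result (κ : Type) [Fintype κ] [DecidableEq κ] (h : ThreeRowInequality κ)
    (ι : Type) [Fintype ι] [DecidableEq ι] (r : ι → ℕ) (c : κ → ℕ) (f : Tab ι κ → ℝ) :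
    2 * ∑ x ∈ Om r c, dd (Om r c) univ f x ^ 2 ≤
      ∑ a, ∑ b, ∑ x ∈ Om r c, dd (Om r c) {a, b} f x ^ 2 :=
  poincare_rows r c (fun a b e hab hae hbe => tri_of_threeRow h r c a b e hab hae hbe) f

end Vale.Agent.Results.P328.ThreeRowReduction
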